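import Vale.Agent.P068.Main

namespace Vale.Agent.Results.P068.A_full

open Vale.Agent.P068

theorem result :
    (∃ M : Bool → Matroid ℕ, (∀ i, (M i).E = Set.univ) ∧ (∀ i, IsPartitional (M i)) ∧
      ¬ HasPackingCoveringPartition Set.univ M) ∧
    (∃ M N : Matroid ℕ, M.E = Set.univ ∧ N.E = Set.univ ∧ IsPartitional M ∧ IsPartitional N ∧
      ¬ SatisfiesIntersection Set.univ M N) :=
  main

end Vale.Agent.Results.P068.A_full
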